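import Vale.Agent.P181.H303.Spec

/-!
P181, row TI: iteration of theta extraction, from `RowTH`.
-/

set_option autoImplicit false

namespace Vale.Agent.P181.H616

open Finset Vale.Agent.P181.H303

section AHkit

variable {W : Type*} [AddCommGroup W] [Module ℂ W]

theorem ah_mono {G G' : Set W} {c c' : ℝ} (h : G ⊆ G') (hc : c ≤ c') {x : W}
    (hx : x ∈ AH G c) : x ∈ AH G' c' := by
  obtain ⟨m, w, g, hg, hw, rfl⟩ := hx
  exact ⟨m, w, g, fun i => h (hg i), hw.trans hc, rfl⟩

theorem ah_zero (G : Set W) : (0 : W) ∈ AH G 0 :=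
  ⟨0, Fin.elim0, Fin.elim0, fun i => i.elim0, by simp, by simp⟩

theorem ah_self {G : Set W} {x : W} (hx : x ∈ G) : x ∈ AH G 1 :=
  ⟨1, fun _ => 1, fun _ => x, fun _ => hx, by simp, by simp⟩

theorem ah_add {G : Set W} {c c' : ℝ} {x y : W} (hx : x ∈ AH G c) (hy : y ∈ AH G c') :
    x + y ∈ AH G (c + c') := by
  obtain ⟨m, w, g, hg, hw, rfl⟩ := hx
  obtain ⟨m', w', g', hg', hw', rfl⟩ := hy
  refine ⟨m + m', Fin.addCases w w', Fin.addCases g g', ?_, ?_, ?_⟩
  · intro i
    refine Fin.addCases (fun j => ?_) (fun j => ?_) i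
    · simpa using hg j
    · simpa using hg' j
  · rw [Fin.sum_univ_add]
    simpa using add_le_add hw hw'
  · rw [Fin.sum_univ_add]
    simp

theorem ah_smul {G : Set W} {c : ℝ} {x : W} (a : ℂ) (hx : x ∈ AH G c) :
    a • x ∈ AH G (‖a‖ * c) := by
  obtain ⟨m, w, g, hg, hw, rfl⟩ := hx
  refine ⟨m, fun i => a * w i, g, hg, ?_, ?_⟩
  · simp only [norm_mul]
    rw [← Finset.mul_sum]
    exact mul_le_mul_of_nonneg_left hw (norm_nonneg _)
  · rw [Finset.smul_sum]
    simp only [mul_smul]

theorem ah_sum {G : Set W} {ι : Type*} (s : Finset ι) (x : ι → W) (c : ι → ℝ)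
    (h : ∀ i ∈ s, x i ∈ AH G (c i)) : ∑ i ∈ s, x i ∈ AH G (∑ i ∈ s, c i) := by
  classical
  induction s using Finset.induction_on with
  | empty => simpa using ah_zero G
  | insert i s hi ih =>
    rw [Finset.sum_insert hi, Finset.sum_insert hi]
    exact ah_add (h i (Finset.mem_insert_self i s))
      (ih fun j hj => h j (Finset.mem_insert_of_mem hj))

theorem ah_trans {G G' : Set W} {c c' : ℝ} (hc' : 0 ≤ c') (h : ∀ g ∈ G, g ∈ AH G' c') {x : W}
    (hx : x ∈ AH G c) : x ∈ AH G' (c * c') := by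
  obtain ⟨m, w, g, hg, hw, rfl⟩ := hx
  refine ah_mono subset_rfl ?_ (ah_sum univ (fun i => w i • g i) (fun i => ‖w i‖ * c')
    (fun i _ => ah_smul (w i) (h (g i) (hg i))))
  rw [← Finset.sum_mul]
  exact mul_le_mul_of_nonneg_right hw hc'

end AHkit

theorem rowTI (hTH : RowTH) : RowTI := by
  intro s hs L hL1 hL2 A W _ _ _ _ T z N
  induction N generalizing T with
  | zero =>
    intro P hP
    refine ah_mono subset_rfl ?_ (ah_self ?_)
    · simp
    · exact ⟨fun _ => 0, P, by simp, by simpa using hP, by simp⟩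
  | succ N ih =>
    intro P hP
    have h1 := hTH s hs L hL1 hL2 A W T z ((s - 1) * (s - 1) + N) (Nat.le_add_right _ _) P
      (fun i => by
        have := hP i
        rwa [← Nat.add_assoc] at this)
    have hv : (0 : ℝ) ≤ (vv s : ℝ) ^ (s * (s * s) * N) := by positivity
    have h2 := ah_trans (G' := {x | ∃ (μ : Fin (TT s) → ℕ) (Q : Fin s → A), ∑ t, μ t = N + 1 ∧
      (∀ i, Q i ∈ Mono z ((s - 1) * (s - 1))) ∧
      x = T (fun i => (∏ t, (∑ j, L t j • z j) ^ μ t) * Q i)}) hv ?_ h1
    · refine ah_mono subset_rfl (le_of_eq ?_) h2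
      rw [← pow_add]
      congr 1
      ring
    · rintro x ⟨t, Q, hQ, rfl⟩
      have h3 := ih (T.compLinearMap (fun _ => LinearMap.mulLeft ℂ (∑ j, L t j • z j))) Q hQ
      simp only [MultilinearMap.compLinearMap_apply, LinearMap.mulLeft_apply] at h3
      refine ah_mono ?_ le_rfl h3
      rintro y ⟨μ, Q', hμ, hQ', rfl⟩
      classical
      refine ⟨fun t' => μ t' + if t' = t then 1 else 0, Q', ?_, hQ', ?_⟩
      · rw [Finset.sum_add_distrib, hμ]
        simp
      · congr 1
        funext i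
        simp only [pow_add, Finset.prod_mul_distrib]
        have : ∏ x : Fin (TT s), (∑ j, L x j • z j) ^ (if x = t then 1 else 0) =
            ∑ j, L t j • z j := by
          rw [Finset.prod_eq_single t]
          · simp
          · intro b _ hb
            simp [hb]
          · intro h
            exact absurd (Finset.mem_univ t) h
        rw [this]
        ring

end Vale.Agent.P181.H616
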