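import Mathlib

/-! P181, LK: the number row `num8`. -/

namespace Vale.Agent.P181.H616

open Filter Asymptotics

/-- for large `a` the logarithmic factors are at most `a ^ (1/7)` -/
theorem ev_log : ∀ᶠ a : ℕ in atTop,
    4 ≤ Real.log a ∧ (10:ℝ) ^ 6 * (21:ℝ) ^ 13 * (Real.log a) ^ 14 ≤ (a : ℝ) ^ ((1:ℝ) / 7) := by
  have h1 : ∀ᶠ x : ℝ in atTop, 4 ≤ Real.log x := Real.tendsto_log_atTop.eventually_ge_atTop 4
  have h2 : ∀ᶠ x : ℝ in atTop,
      ‖Real.log x ^ (14:ℝ)‖ ≤ (1 / ((10:ℝ) ^ 6 * (21:ℝ) ^ 13)) * ‖x ^ ((1:ℝ) / 7)‖ :=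
    (isLittleO_log_rpow_rpow_atTop (14:ℝ) (by norm_num : (0:ℝ) < 1 / 7)).bound (by positivity)
  have h3 : ∀ᶠ x : ℝ in atTop, 0 < x := eventually_gt_atTop 0
  have h := (h1.and (h2.and h3))
  have h' := (tendsto_natCast_atTop_atTop (R := ℝ)).eventually h
  filter_upwards [h'] with a ha
  obtain ⟨ha1, ha2, ha3⟩ := ha
  refine ⟨ha1, ?_⟩
  have hL : 0 ≤ Real.log (a : ℝ) := by linarith
  have e1 : ‖Real.log (a : ℝ) ^ (14:ℝ)‖ = Real.log (a : ℝ) ^ 14 := by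
    rw [show (14:ℝ) = ((14:ℕ) : ℝ) by norm_num, Real.rpow_natCast, Real.norm_eq_abs,
      abs_of_nonneg (by positivity)]
  have e2 : ‖(a : ℝ) ^ ((1:ℝ) / 7)‖ = (a : ℝ) ^ ((1:ℝ) / 7) := by
    rw [Real.norm_eq_abs, abs_of_nonneg (by positivity)]
  rw [e1, e2] at ha2
  have hpos : (0:ℝ) < (10:ℝ) ^ 6 * (21:ℝ) ^ 13 := by positivity
  calc (10:ℝ) ^ 6 * (21:ℝ) ^ 13 * (Real.log a) ^ 14
      ≤ (10:ℝ) ^ 6 * (21:ℝ) ^ 13 * ((1 / ((10:ℝ) ^ 6 * (21:ℝ) ^ 13)) * (a : ℝ) ^ ((1:ℝ) / 7)) :=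
        mul_le_mul_of_nonneg_left ha2 hpos.le
    _ = (a : ℝ) ^ ((1:ℝ) / 7) := by
        rw [← mul_assoc, mul_one_div_cancel hpos.ne', one_mul]

theorem num8 : ∀ᶠ a : ℕ in atTop, ∀ b : ℕ, (10:ℝ) ^ 8 * (a:ℝ) * (Real.log a) ^ 2 ≤ b →
    (b:ℝ) ≤ (a:ℝ) ^ ((8:ℝ) / 7) → ∃ s : ℕ, 1 ≤ s ∧ 43680 * (s + 1) ^ 2 ≤ b / a ∧
      (10:ℝ) ^ 6 * (s:ℝ) ^ 13 * ((b / a : ℕ) : ℝ) ^ 6 * Real.log a ≤ a ∧
      a * (a * b + 17) ≤ 2 ^ (s / 4) := by
  filter_upwards [ev_log, eventually_ge_atTop 17] with a ha ha17 b hb1 hb2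
  obtain ⟨hL4, hE⟩ := ha
  set L := Real.log (a : ℝ) with hLdef
  have haR : (17:ℝ) ≤ a := by exact_mod_cast ha17
  have ha0 : (0:ℝ) < a := by linarith
  have haN : 0 < a := by omega
  set y : ℝ := (a : ℝ) ^ ((1:ℝ) / 7) with hy
  have hy0 : 0 < y := Real.rpow_pos_of_pos ha0 _
  have hy7 : y ^ 7 = a := by
    rw [hy, ← Real.rpow_natCast, ← Real.rpow_mul ha0.le]
    norm_num
  have h87 : (a : ℝ) ^ ((8:ℝ) / 7) = y * a := by
    rw [hy, ← Real.rpow_add_one ha0.ne']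
    norm_num
  set s : ℕ := ⌈20 * L⌉₊ with hs
  have hs1 : 20 * L ≤ s := Nat.le_ceil _
  have hs2 : (s : ℝ) < 20 * L + 1 := Nat.ceil_lt_add_one (by linarith)
  have hdiv : ((b / a : ℕ) : ℝ) ≤ y := by
    have h1 : ((b / a : ℕ) : ℝ) ≤ (b : ℝ) / a := Nat.cast_div_le
    have h2 : (b : ℝ) / a ≤ y := by
      rw [div_le_iff₀ ha0]
      rw [h87] at hb2
      exact hb2
    exact h1.trans h2
  refine ⟨s, ?_, ?_, ?_, ?_⟩
  · have : (1:ℝ) ≤ s := by linarith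
    exact_mod_cast this
  · rw [Nat.le_div_iff_mul_le haN]
    have h1 : ((43680 * (s + 1) ^ 2 * a : ℕ) : ℝ) ≤ (b : ℝ) := by
      push_cast
      have h2 : (s : ℝ) + 1 ≤ 20.5 * L := by linarith
      have h3 : ((s : ℝ) + 1) ^ 2 ≤ (20.5 * L) ^ 2 :=
        pow_le_pow_left₀ (by positivity) h2 2
      have h4 : 43680 * ((s : ℝ) + 1) ^ 2 * a ≤ 43680 * (20.5 * L) ^ 2 * a := by
        apply mul_le_mul_of_nonneg_right _ ha0.le
        linarith
      have h5 : 43680 * (20.5 * L) ^ 2 * a ≤ (10:ℝ) ^ 8 * a * L ^ 2 := by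
        have : 0 ≤ (a : ℝ) * L ^ 2 := by positivity
        nlinarith
      exact h4.trans (h5.trans hb1)
    exact_mod_cast h1
  · have hs3 : (s : ℝ) ≤ 21 * L := by linarith
    have h1 : (s : ℝ) ^ 13 ≤ (21 * L) ^ 13 := pow_le_pow_left₀ (by positivity) hs3 13
    have h2 : ((b / a : ℕ) : ℝ) ^ 6 ≤ y ^ 6 := pow_le_pow_left₀ (by positivity) hdiv 6
    have hL0 : 0 ≤ L := by linarith
    calc (10:ℝ) ^ 6 * (s:ℝ) ^ 13 * ((b / a : ℕ) : ℝ) ^ 6 * L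
        ≤ (10:ℝ) ^ 6 * (21 * L) ^ 13 * y ^ 6 * L := by gcongr
      _ = ((10:ℝ) ^ 6 * (21:ℝ) ^ 13 * L ^ 14) * y ^ 6 := by ring
      _ ≤ y * y ^ 6 := mul_le_mul_of_nonneg_right hE (by positivity)
      _ = a := by rw [← hy7]; ring
  · have hbR : (b : ℝ) ≤ y * a := by rw [← h87]; exact hb2
    have hc : ((a * (a * b + 17) : ℕ) : ℝ) ≤ ((2 ^ (s / 4) : ℕ) : ℝ) := by
      push_cast
      have hya : y ≤ a := by
        have hy1 : 1 ≤ y := Real.one_le_rpow (by linarith) (by norm_num)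
        calc y = y ^ 1 := (pow_one y).symm
          _ ≤ y ^ 7 := pow_le_pow_right₀ hy1 (by norm_num)
          _ = a := hy7
      have hy1 : 1 ≤ y := Real.one_le_rpow (by linarith) (by norm_num)
      have h1 : (a : ℝ) * (a * b + 17) ≤ 2 * (y * a ^ 3) := by
        have e1 : (a : ℝ) * b ≤ a * (y * a) := mul_le_mul_of_nonneg_left hbR ha0.le
        have e2 : (17 : ℝ) ≤ a * (y * a) := by nlinarith
        have e3 : (a : ℝ) * b + 17 ≤ 2 * (a * (y * a)) := by linarith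
        calc (a : ℝ) * (a * b + 17) ≤ a * (2 * (a * (y * a))) :=
              mul_le_mul_of_nonneg_left e3 ha0.le
          _ = 2 * (y * a ^ 3) := by ring
      refine h1.trans ?_
      have hpos : 0 < 2 * (y * (a : ℝ) ^ 3) := by positivity
      have hlog : Real.log (2 * (y * (a : ℝ) ^ 3)) = Real.log 2 + (22 / 7) * L := by
        rw [Real.log_mul (by norm_num) (by positivity), Real.log_mul hy0.ne' (by positivity), hy,
          Real.log_rpow ha0, Real.log_pow]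
        rw [← hLdef]
        push_cast
        ring
      have hdiv4 : (s : ℝ) ≤ 4 * ((s / 4 : ℕ) : ℝ) + 3 := by
        have : s ≤ 4 * (s / 4) + 3 := by omega
        exact_mod_cast this
      have hlog2 : (0.6931 : ℝ) ≤ Real.log 2 := by
        have := Real.log_two_gt_d9
        linarith
      have hlog2' : Real.log 2 ≤ (0.6932 : ℝ) := by
        have := Real.log_two_lt_d9
        linarith
      have hmain : Real.log (2 * (y * (a : ℝ) ^ 3)) ≤ Real.log ((2:ℝ) ^ (s / 4)) := by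
        rw [hlog, Real.log_pow]
        have h4 : 5 * L - 3 / 4 ≤ ((s / 4 : ℕ) : ℝ) := by linarith
        have h5 : (5 * L - 3 / 4) * (0.6931:ℝ) ≤ ((s / 4 : ℕ) : ℝ) * Real.log 2 := by
          apply mul_le_mul h4 hlog2 (by norm_num)
          exact Nat.cast_nonneg _
        nlinarith
      exact (Real.log_le_log_iff hpos (by positivity)).1 hmain
    exact_mod_cast hc

end Vale.Agent.P181.H616
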